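import Vale.Agent.P088.H599.J.Defs

/-!
# P088: the inverse of a matrix function near `1`
-/

open MeasureTheory Set
open scoped ContDiff Matrix

noncomputable section

namespace Vale.Agent.P088.LR.U.H91

open H158

variable {n N k : ℕ}

section General

variable {E F : Type*} [NormedAddCommGroup E] [NormedSpace ℝ E] [NormedAddCommGroup F]
  [NormedSpace ℝ F]

theorem cl_nn {a : ℝ} {f : V n → E} (h : Cl k a f) : 0 ≤ a :=
  (norm_nonneg _).trans (h 0 (Nat.zero_le _) 0)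

theorem cl_le {a b : ℝ} {f : V n → E} (h : Cl k a f) (hab : a ≤ b) : Cl k b f :=
  fun l hl x => (h l hl x).trans hab

theorem cl_clm (L : E →L[ℝ] F) {a : ℝ} {f : V n → E} (hf : ContDiff ℝ ∞ f) (h : Cl k a f) :
    Cl k (‖L‖ * a) (fun x => L (f x)) := by
  intro l hl x
  have h1 : iteratedFDeriv ℝ l (fun x => L (f x)) x =
      L.compContinuousMultilinearMap (iteratedFDeriv ℝ l f x) :=
    L.iteratedFDeriv_comp_left hf.contDiffAt (mod_cast le_top)
  rw [h1]
  exact (L.norm_compContinuousMultilinearMap_le _).trans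
    (mul_le_mul_of_nonneg_left (h l hl x) (norm_nonneg _))

theorem cl_fsum {ι : Type*} (s : Finset ι) {f : ι → V n → E}
    (hf : ∀ i ∈ s, ContDiff ℝ ∞ (f i)) {a : ι → ℝ} (h : ∀ i ∈ s, Cl k (a i) (f i)) :
    Cl k (∑ i ∈ s, a i) (fun x => ∑ i ∈ s, f i x) := by
  intro l hl x
  rw [iteratedFDeriv_fun_sum_apply (fun i hi => ((hf i hi).of_le (mod_cast le_top)).contDiffAt)]
  exact (norm_sum_le _ _).trans (Finset.sum_le_sum fun i hi => h i hi l hl x)

theorem cl_add2 {a b : ℝ} {f g : V n → E} (hf : ContDiff ℝ ∞ f) (hg : ContDiff ℝ ∞ g)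
    (h1 : Cl k a f) (h2 : Cl k b g) : Cl k (a + b) (fun x => f x + g x) := by
  intro l hl x
  rw [fun_iteratedFDeriv_add_apply (hf.of_le (mod_cast le_top)).contDiffAt
    (hg.of_le (mod_cast le_top)).contDiffAt]
  exact (norm_add_le _ _).trans (add_le_add (h1 l hl x) (h2 l hl x))

end General

section Ring

variable {A : Type*} [NormedRing A] [NormedAlgebra ℝ A]

theorem leib {f g : V n → A} (hf : ContDiff ℝ ∞ f) (hg : ContDiff ℝ ∞ g) {S b : ℝ} {x : V n}
    (hS : ∀ l ≤ k, ‖iteratedFDeriv ℝ l f x‖ ≤ S) (hb : ∀ l ≤ k, ‖iteratedFDeriv ℝ l g x‖ ≤ b)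
    {l : ℕ} (hl : l ≤ k) : ‖iteratedFDeriv ℝ l (fun y => f y * g y) x‖ ≤ 2 ^ k * (S * b) := by
  have hS0 : 0 ≤ S := (norm_nonneg _).trans (hS 0 (Nat.zero_le _))
  have hb0 : 0 ≤ b := (norm_nonneg _).trans (hb 0 (Nat.zero_le _))
  refine (norm_iteratedFDeriv_mul_le hf hg x (n := l) (mod_cast le_top)).trans ?_
  calc ∑ i ∈ Finset.range (l + 1), (l.choose i : ℝ) * ‖iteratedFDeriv ℝ i f x‖ *
        ‖iteratedFDeriv ℝ (l - i) g x‖
      ≤ ∑ i ∈ Finset.range (l + 1), (l.choose i : ℝ) * (S * b) := by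
        refine Finset.sum_le_sum fun i hi => ?_
        rw [mul_assoc]
        refine mul_le_mul_of_nonneg_left ?_ (Nat.cast_nonneg _)
        have hi' : i ≤ l := Nat.lt_succ_iff.1 (Finset.mem_range.1 hi)
        exact mul_le_mul (hS i (hi'.trans hl)) (hb _ ((Nat.sub_le _ _).trans hl)) (norm_nonneg _)
          hS0
    _ = 2 ^ l * (S * b) := by
        rw [← Finset.sum_mul]
        congr 1
        exact_mod_cast Nat.sum_range_choose l
    _ ≤ 2 ^ k * (S * b) :=
        mul_le_mul_of_nonneg_right (pow_le_pow_right₀ (by norm_num) hl) (mul_nonneg hS0 hb0)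

theorem cl_mul2 {a b : ℝ} {f g : V n → A} (hf : ContDiff ℝ ∞ f) (hg : ContDiff ℝ ∞ g)
    (h1 : Cl k a f) (h2 : Cl k b g) : Cl k (2 ^ k * (a * b)) (fun x => f x * g x) :=
  fun l hl x => leib hf hg (fun i hi => h1 i hi x) (fun i hi => h2 i hi x) hl

/-- The inverse of a function near `1`. -/
theorem cl_invR {F G : V n → A} (hF : ContDiff ℝ ∞ F) (hG : ContDiff ℝ ∞ G)
    (h : ∀ x, G x * F x = 1) {δ : ℝ} (hδ : 2 ^ k * δ ≤ 1 / 2)
    (hc : Cl k δ (fun x => F x - 1)) : Cl k (2 * δ) (fun x => G x - 1) := by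
  have hF1 : ContDiff ℝ ∞ (fun x => F x - 1) := hF.sub contDiff_const
  have hG1 : ContDiff ℝ ∞ (fun x => G x - 1) := hG.sub contDiff_const
  have key : ∀ x, ∃ S : ℝ, (∀ l ≤ k, ‖iteratedFDeriv ℝ l (fun x => G x - 1) x‖ ≤ S) ∧
      ∃ l ≤ k, ‖iteratedFDeriv ℝ l (fun x => G x - 1) x‖ = S := by
    intro x
    obtain ⟨l, hl, hmax⟩ := Finset.exists_max_image (Finset.range (k + 1))
      (fun l => ‖iteratedFDeriv ℝ l (fun x => G x - 1) x‖) ⟨0, by simp⟩
    exact ⟨_, fun i hi => hmax i (Finset.mem_range.2 (Nat.lt_succ_of_le hi)), l,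
      Nat.lt_succ_iff.1 (Finset.mem_range.1 hl), rfl⟩
  intro i hi x
  obtain ⟨S, hS, l, hl, hlS⟩ := key x
  have hS0 : 0 ≤ S := hlS ▸ norm_nonneg _
  have e : (fun x => G x - 1) = fun x => -((G x - 1) * (F x - 1)) + -(F x - 1) := by
    funext y
    have := h y
    simp only [sub_mul, mul_sub, this]
    noncomm_ring
  have h1 : ‖iteratedFDeriv ℝ l (fun x => G x - 1) x‖ ≤ 2 ^ k * (S * δ) + δ := by
    conv_lhs => rw [e]
    rw [fun_iteratedFDeriv_add_apply ((hG1.mul hF1).neg.of_le (mod_cast le_top)).contDiffAt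
      (hF1.neg.of_le (mod_cast le_top)).contDiffAt]
    refine (norm_add_le _ _).trans (add_le_add ?_ ?_)
    · have e2 : iteratedFDeriv ℝ l (fun x => -((G x - 1) * (F x - 1))) x =
        -iteratedFDeriv ℝ l (fun x => (G x - 1) * (F x - 1)) x :=
        iteratedFDeriv_neg_apply (f := fun x => (G x - 1) * (F x - 1))
      rw [e2, norm_neg]
      exact leib hG1 hF1 hS (fun j hj => hc j hj x) hl
    · have e2 : iteratedFDeriv ℝ l (fun x => -(F x - 1)) x =
        -iteratedFDeriv ℝ l (fun x => (F x - 1)) x :=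
        iteratedFDeriv_neg_apply (f := fun x => (F x - 1))
      rw [e2, norm_neg]
      exact hc l hl x
  have h2 : 2 ^ k * (S * δ) ≤ S / 2 := by
    have := mul_le_mul_of_nonneg_left hδ hS0
    nlinarith
  have h3 : S ≤ 2 * δ := by
    rw [hlS] at h1
    linarith
  exact (hS i hi).trans h3

end Ring

/-! ### Matrices -/

/-- Matrices with the operator norm for the sup norm. -/
def MM (N : ℕ) : Type := Matrix (Fin N) (Fin N) ℂ

set_option warn.classDefReducibility false in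
/-- The normed ring. -/
def nrM (N : ℕ) : NormedRing (MM N) := Matrix.linftyOpNormedRing

instance : NormedRing (MM N) := nrM N

set_option warn.classDefReducibility false in
/-- The normed algebra. -/
def naM (N : ℕ) : NormedAlgebra ℝ (MM N) := Matrix.linftyOpNormedAlgebra

instance : NormedAlgebra ℝ (MM N) := naM N

instance : FiniteDimensional ℝ (MM N) :=
  inferInstanceAs (FiniteDimensional ℝ (Matrix (Fin N) (Fin N) ℂ))

instance : CompleteSpace (MM N) := FiniteDimensional.complete ℝ _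

/-- A matrix function with values in `MM N`. -/
def toM (P : MC n N) : V n → MM N := P

/-- The embedding of the entry `a b`. -/
def inj (N : ℕ) (a b : Fin N) : ℂ →L[ℝ] MM N :=
  LinearMap.toContinuousLinearMap (Matrix.singleLinearMap ℝ a b : ℂ →ₗ[ℝ] Matrix (Fin N) (Fin N) ℂ)

/-- The entry `a b`. -/
def prj (N : ℕ) (a b : Fin N) : MM N →L[ℝ] ℂ :=
  LinearMap.toContinuousLinearMap
    (Matrix.entryLinearMap ℝ ℂ a b : Matrix (Fin N) (Fin N) ℂ →ₗ[ℝ] ℂ)

theorem prj_apply (a b : Fin N) (P : Matrix (Fin N) (Fin N) ℂ) : prj N a b P = P a b := rfl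

theorem inj_sum (P : Matrix (Fin N) (Fin N) ℂ) : ∑ a, ∑ b, inj N a b (P a b) = P := by
  conv_rhs => rw [Matrix.matrix_eq_sum_single P]
  rfl

/-- The constant of the embedding. -/
def c1 (N : ℕ) : ℝ := 1 + ∑ a, ∑ b, ‖inj N a b‖

/-- The constant of the entries. -/
def c2 (N : ℕ) : ℝ := 1 + ∑ a, ∑ b, ‖prj N a b‖

theorem c1_pos : 0 < c1 N := by
  unfold c1
  have : 0 ≤ ∑ a, ∑ b, ‖inj N a b‖ :=
    Finset.sum_nonneg fun _ _ => Finset.sum_nonneg fun _ _ => norm_nonneg _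
  linarith

theorem c2_pos : 0 < c2 N := by
  unfold c2
  have : 0 ≤ ∑ a, ∑ b, ‖prj N a b‖ :=
    Finset.sum_nonneg fun _ _ => Finset.sum_nonneg fun _ _ => norm_nonneg _
  linarith

theorem prj_le (a b : Fin N) : ‖prj N a b‖ ≤ c2 N := by
  unfold c2
  have h1 : ‖prj N a b‖ ≤ ∑ b, ‖prj N a b‖ :=
    Finset.single_le_sum (f := fun b => ‖prj N a b‖) (fun _ _ => norm_nonneg _)
      (Finset.mem_univ b)
  have h2 : ∑ b, ‖prj N a b‖ ≤ ∑ a, ∑ b, ‖prj N a b‖ :=
    Finset.single_le_sum (f := fun a => ∑ b, ‖prj N a b‖)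
      (fun _ _ => Finset.sum_nonneg fun _ _ => norm_nonneg _) (Finset.mem_univ a)
  linarith

theorem sm_toM {P : MC n N} (hP : SmC P) : ContDiff ℝ ∞ (toM P) := by
  have e : toM P = fun x => ∑ a, ∑ b, inj N a b (P x a b) :=
    funext fun x => (inj_sum (P x)).symm
  rw [e]
  exact ContDiff.sum fun a _ => ContDiff.sum fun b _ => (inj N a b).contDiff.comp (hP a b)

theorem sm_ofM {P : MC n N} (hP : ContDiff ℝ ∞ (toM P)) : SmC P := fun a b =>
  (prj N a b).contDiff.comp hP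

theorem cl_toM {P : MC n N} (hP : SmC P) {δ : ℝ} (hδ : 0 ≤ δ) (h : ClC k δ P) :
    Cl k (c1 N * δ) (toM P) := by
  have h1 : Cl k (∑ a, ∑ b, ‖inj N a b‖ * δ) (fun x => ∑ a, ∑ b, inj N a b (P x a b)) := by
    refine cl_fsum _ (fun a _ => ContDiff.sum fun b _ => (inj N a b).contDiff.comp (hP a b))
      fun a _ => ?_
    refine cl_fsum _ (fun b _ => (inj N a b).contDiff.comp (hP a b)) fun b _ => ?_
    exact cl_clm _ (hP a b) (h a b)
  have e : (fun x => ∑ a, ∑ b, inj N a b (P x a b)) = toM P := funext fun x => inj_sum (P x)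
  rw [e] at h1
  refine cl_le h1 ?_
  simp only [← Finset.sum_mul]
  unfold c1
  nlinarith

theorem cl_ofM {P : MC n N} (hP : ContDiff ℝ ∞ (toM P)) {δ : ℝ} (h : Cl k δ (toM P)) :
    ClC k (c2 N * δ) P := fun a b =>
  cl_le (cl_clm (prj N a b) hP h) (mul_le_mul_of_nonneg_right (prj_le a b) (cl_nn h))

theorem sm_one : SmC (fun _ : V n => (1 : Matrix (Fin N) (Fin N) ℂ)) := fun _ _ => contDiff_const

theorem sm_sub {P Q : MC n N} (hP : SmC P) (hQ : SmC Q) : SmC (fun x => P x - Q x) :=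
  fun a b => (hP a b).sub (hQ a b)

/-- (U_INV) -/
theorem inv : RowINV := by
  intro n N k
  have hc1 := c1_pos (N := N)
  have hc2 := c2_pos (N := N)
  have hp : (1 : ℝ) ≤ 2 ^ k := one_le_pow₀ (by norm_num)
  refine ⟨c2 N * (2 * c1 N), 1 / (2 ^ k * (2 * c1 N)), by positivity, by positivity, ?_⟩
  intro F hF δ hδ0 hδ hcl
  have hFM : ContDiff ℝ ∞ (toM F) := sm_toM hF
  have hF1 : SmC (fun x => F x - 1) := sm_sub hF sm_one
  have hclM : Cl k (c1 N * δ) (fun x => toM F x - 1) := cl_toM hF1 hδ0 hcl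
  have hsm : 2 ^ k * (c1 N * δ) ≤ 1 / 2 := by
    have h1 : 2 ^ k * (2 * c1 N) * δ ≤ 1 := by
      rw [le_div_iff₀ (by positivity)] at hδ
      linarith
    nlinarith
  have hlt : ∀ x, ‖toM F x - 1‖ < 1 := by
    intro x
    have h1 := hclM 0 (Nat.zero_le _) x
    rw [norm_iteratedFDeriv_zero] at h1
    have h2 : c1 N * δ ≤ 2 ^ k * (c1 N * δ) :=
      le_mul_of_one_le_left (by positivity) hp
    linarith
  have hu : ∀ x, IsUnit (toM F x) := by
    intro x
    have h1 : ‖1 - toM F x‖ < 1 := by rw [norm_sub_rev]; exact hlt x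
    have h2 := (Units.oneSub (1 - toM F x) h1).isUnit
    rw [Units.val_oneSub] at h2
    simpa using h2
  have hdet : ∀ x, IsUnit (F x).det := fun x =>
    (Matrix.isUnit_iff_isUnit_det (F x)).1 (hu x)
  have hG : ContDiff ℝ ∞ (toM fun x => (F x)⁻¹) := by
    have e : (toM fun x => (F x)⁻¹) = fun x => Ring.inverse (toM F x) :=
      funext fun x => Matrix.nonsing_inv_eq_ringInverse (F x)
    rw [e, contDiff_iff_contDiffAt]
    intro x
    obtain ⟨u, hux⟩ := hu x
    have h1 : ContDiffAt ℝ ∞ Ring.inverse (toM F x) := by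
      rw [← hux]
      exact contDiffAt_ringInverse ℝ u
    exact h1.comp x hFM.contDiffAt
  refine ⟨hdet, sm_ofM hG, ?_⟩
  have h3 : Cl k (2 * (c1 N * δ)) (toM fun x => (F x)⁻¹ - 1) :=
    cl_invR hFM hG (fun x => Matrix.nonsing_inv_mul (F x) (hdet x)) hsm hclM
  have h4 := cl_ofM (hG.sub contDiff_const) h3
  intro a b
  refine cl_le (h4 a b) (le_of_eq ?_)
  ring

end Vale.Agent.P088.LR.U.H91

end
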