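import Vale.Agent.P088.H91.UInv

/-!
# P088: the trace coordinates
-/

open MeasureTheory Set
open scoped ContDiff Matrix

noncomputable section

namespace Vale.Agent.P088.LR.U.H91

open H158

variable {n N k : ℕ}

/-- The centre of the cube. -/
def ctr91 (n : ℕ) : V n := fun _ => 1 / 2

theorem exists_chi91 (n : ℕ) : ∃ χ : V n → ℝ, ContDiff ℝ ∞ χ ∧ (∀ x ∈ core n, χ x = 1) ∧
    HasCompactSupport χ := by
  let f : ContDiffBump (ctr91 n) := ⟨1 / 4, 3 / 8, by norm_num, by norm_num⟩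
  refine ⟨f, f.contDiff, fun x hx => f.one_of_mem_closedBall ?_, f.hasCompactSupport⟩
  show x ∈ Metric.closedBall (ctr91 n) (1 / 4)
  rw [closedBall_pi _ (by norm_num)]
  intro j _
  show x j ∈ Metric.closedBall (ctr91 n j) (1 / 4)
  rw [Real.closedBall_eq_Icc]
  have := hx j
  constructor <;> simp only [ctr91] <;> linarith [this.1, this.2]

theorem exists_cl91 {f : V n → ℝ} (hf : ContDiff ℝ ∞ f) (hc : HasCompactSupport f) :
    ∃ B : ℝ, 0 < B ∧ Cl k B f := by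
  have h : ∀ l : ℕ, ∃ C, ∀ x, ‖iteratedFDeriv ℝ l f x‖ ≤ C := fun l =>
    (hf.continuous_iteratedFDeriv (by exact_mod_cast le_top)).bounded_above_of_compact_support
      (hc.iteratedFDeriv l)
  choose C hC using h
  refine ⟨1 + ∑ l ∈ Finset.range (k + 1), |C l|, by positivity, fun l hl x => ?_⟩
  calc ‖iteratedFDeriv ℝ l f x‖ ≤ C l := hC l x
    _ ≤ |C l| := le_abs_self _
    _ ≤ ∑ l ∈ Finset.range (k + 1), |C l| :=
      Finset.single_le_sum (f := fun l => |C l|) (fun i _ => abs_nonneg _)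
        (Finset.mem_range.mpr (by omega))
    _ ≤ _ := by linarith

/-- The real part of the trace. -/
def trL (N : ℕ) : MM N →L[ℝ] ℝ :=
  LinearMap.toContinuousLinearMap
    ({ toFun := fun P => (Matrix.trace P).re
       map_add' := fun P Q => by rw [Matrix.trace_add, Complex.add_re]
       map_smul' := fun c P => by
        rw [Matrix.trace_smul, RingHom.id_apply, Complex.real_smul, Complex.re_ofReal_mul,
          smul_eq_mul] } : Matrix (Fin N) (Fin N) ℂ →ₗ[ℝ] ℝ)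

theorem trL_apply (P : Matrix (Fin N) (Fin N) ℂ) : trL N P = (Matrix.trace P).re := rfl

/-- The embedding of a coordinate. -/
def inc (n : ℕ) (a : Fin n) : ℝ →L[ℝ] V n :=
  LinearMap.toContinuousLinearMap (LinearMap.single ℝ (fun _ : Fin n => ℝ) a)

theorem inc_sum (v : V n) : ∑ a, inc n a (v a) = v := by
  funext b
  simp only [Finset.sum_apply]
  rw [Finset.sum_eq_single b]
  · simp [inc]
  · intro a _ hab
    simp [inc, hab.symm]
  · simp

theorem sm_dx (a : Fin n) : SmC (fun x : V n => (x a : ℂ) • (1 : Matrix (Fin N) (Fin N) ℂ)) := by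
  intro i j
  have h : ContDiff ℝ ∞ fun x : V n => ((x a : ℝ) : ℂ) :=
    Complex.ofRealCLM.contDiff.comp (contDiff_apply ℝ ℝ a)
  exact h.mul contDiff_const

theorem alg91 (hN : 1 ≤ N) (G X : Matrix (Fin N) (Fin N) ℂ) (t c : ℝ) :
    c * ((N : ℝ)⁻¹ * (Matrix.trace (G * X)).re - t) =
      (N : ℝ)⁻¹ * (c * (Matrix.trace ((G - 1) * (X - (t : ℂ) • 1))).re +
        (c * (Matrix.trace (X - (t : ℂ) • 1)).re + c * t * (Matrix.trace (G - 1)).re)) := by
  have hN' : (N : ℝ) ≠ 0 := by positivity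
  have e : G * X = (G - 1) * (X - (t : ℂ) • 1) + (X - (t : ℂ) • 1) + (t : ℂ) • (G - 1) +
      (t : ℂ) • 1 := by
    simp only [sub_mul, mul_sub, one_mul, Matrix.mul_smul, mul_one, smul_sub]
    abel
  have h1 : (Matrix.trace (G * X)).re = (Matrix.trace ((G - 1) * (X - (t : ℂ) • 1))).re +
      (Matrix.trace (X - (t : ℂ) • 1)).re + t * (Matrix.trace (G - 1)).re + t * N := by
    rw [e]
    simp only [Matrix.trace_add, Matrix.trace_smul, Complex.add_re, smul_eq_mul,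
      Complex.re_ofReal_mul, Matrix.trace_one, Fintype.card_fin, Complex.natCast_re]
  rw [h1]
  field_simp
  ring

theorem coo_one (n N k : ℕ) (hN : 1 ≤ N) (χ : V n → ℝ) (hχ : ContDiff ℝ ∞ χ)
    (hχc : HasCompactSupport χ) : ∃ C ε₀ : ℝ, 0 < C ∧ 0 < ε₀ ∧
    ∀ (F : MC n N) (X : Fin n → MC n N), SmC F → (∀ a, SmC (X a)) → ∀ δ, 0 ≤ δ → δ ≤ ε₀ →
    ClC k δ (fun x => F x - 1) → (∀ a, ClC k δ (fun x => X a x - (x a : ℂ) • 1)) →
    ContDiff ℝ ∞ (fun (x : V n) (a : Fin n) =>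
      χ x * ((N : ℝ)⁻¹ * (Matrix.trace ((F x)⁻¹ * X a x)).re - x a)) ∧
    Cl k (C * δ) (fun (x : V n) (a : Fin n) =>
      χ x * ((N : ℝ)⁻¹ * (Matrix.trace ((F x)⁻¹ * X a x)).re - x a)) := by
  obtain ⟨C0, ε0, hC0, hε0, hinv⟩ := inv n N k
  obtain ⟨B0, hB0, hclχ⟩ := exists_cl91 (k := k) hχ hχc
  have hcx : ∀ a : Fin n, ∃ B : ℝ, 0 < B ∧ Cl k B (fun x : V n => χ x * x a) := fun a =>
    exists_cl91 (hχ.mul (contDiff_apply ℝ ℝ a)) hχc.mul_right
  choose Ba hBa hclχa using hcx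
  set B : ℝ := B0 + ∑ a, Ba a with hB
  have hBa0 : 0 ≤ ∑ a, Ba a := Finset.sum_nonneg fun a _ => (hBa a).le
  have hBpos : 0 < B := by linarith
  have hB0B : B0 ≤ B := by linarith
  have hBaB : ∀ a, Ba a ≤ B := fun a => by
    have := Finset.single_le_sum (f := Ba) (fun a _ => (hBa a).le) (Finset.mem_univ a)
    linarith
  set m : ℝ := 1 + ∑ a, ‖inc n a‖ with hm
  have hm0 : 0 ≤ ∑ a, ‖inc n a‖ := Finset.sum_nonneg fun a _ => norm_nonneg _
  have hc1 := c1_pos (N := N)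
  set τ : ℝ := 1 + ‖trL N‖ with hτ
  have hτ0 : 0 < τ := by have := norm_nonneg (trL N); linarith
  have hτ1 : ‖trL N‖ ≤ τ := by linarith
  set D : ℝ := 2 ^ k * (B * (τ * (2 ^ k * (c1 N * C0 * c1 N)))) +
    (2 ^ k * (B * (τ * c1 N)) + 2 ^ k * (B * (τ * (c1 N * C0)))) with hD
  have hDpos : 0 < D := by positivity
  refine ⟨m * D, min ε0 1, by positivity, lt_min hε0 one_pos, ?_⟩
  intro F X hF hX δ hδ0 hδ hclF hclX
  obtain ⟨-, hG, hclG⟩ := hinv F hF δ hδ0 (hδ.trans (min_le_left _ _)) hclF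
  have hδ1 : δ ≤ 1 := hδ.trans (min_le_right _ _)
  have hG1 : SmC (fun x => (F x)⁻¹ - 1) := sm_sub hG sm_one
  have hX1 : ∀ a, SmC (fun x => X a x - (x a : ℂ) • 1) := fun a => sm_sub (hX a) (sm_dx a)
  have hGM := sm_toM hG1
  have hXM := fun a => sm_toM (hX1 a)
  have hclGM : Cl k (c1 N * (C0 * δ)) (toM fun x => (F x)⁻¹ - 1) :=
    cl_toM hG1 (by positivity) hclG
  have hclXM : ∀ a, Cl k (c1 N * δ) (toM fun x => X a x - (x a : ℂ) • 1) := fun a =>
    cl_toM (hX1 a) hδ0 (hclX a)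
  -- the components
  have hcomp : ∀ a : Fin n, ContDiff ℝ ∞ (fun x : V n =>
        χ x * ((N : ℝ)⁻¹ * (Matrix.trace ((F x)⁻¹ * X a x)).re - x a)) ∧
      Cl k (D * δ) (fun x : V n =>
        χ x * ((N : ℝ)⁻¹ * (Matrix.trace ((F x)⁻¹ * X a x)).re - x a)) := by
    intro a
    have e : (fun x : V n => χ x * ((N : ℝ)⁻¹ * (Matrix.trace ((F x)⁻¹ * X a x)).re - x a)) =
        fun x => (N : ℝ)⁻¹ * (χ x * trL N ((toM fun x => (F x)⁻¹ - 1) x *
          (toM fun x => X a x - (x a : ℂ) • 1) x) +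
          (χ x * trL N ((toM fun x => X a x - (x a : ℂ) • 1) x) +
            χ x * x a * trL N ((toM fun x => (F x)⁻¹ - 1) x))) := by
      funext x
      exact alg91 hN _ _ _ _
    have s1 : ContDiff ℝ ∞ fun x : V n => trL N ((toM fun x => (F x)⁻¹ - 1) x *
          (toM fun x => X a x - (x a : ℂ) • 1) x) := (trL N).contDiff.comp (hGM.mul (hXM a))
    have s2 : ContDiff ℝ ∞ fun x : V n => trL N ((toM fun x => X a x - (x a : ℂ) • 1) x) :=
      (trL N).contDiff.comp (hXM a)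
    have s3 : ContDiff ℝ ∞ fun x : V n => trL N ((toM fun x => (F x)⁻¹ - 1) x) :=
      (trL N).contDiff.comp hGM
    have sχ : ContDiff ℝ ∞ fun x : V n => χ x * x a := hχ.mul (contDiff_apply ℝ ℝ a)
    have l1 := cl_clm (trL N) (hGM.mul (hXM a)) (cl_mul2 hGM (hXM a) hclGM (hclXM a))
    have l2 := cl_clm (trL N) (hXM a) (hclXM a)
    have l3 := cl_clm (trL N) hGM hclGM
    have m1 := cl_mul2 hχ s1 (cl_le hclχ hB0B) l1
    have m2 := cl_mul2 hχ s2 (cl_le hclχ hB0B) l2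
    have m3 := cl_mul2 sχ s3 (cl_le (hclχa a) (hBaB a)) l3
    have tot := cl_add2 (hχ.mul s1) ((hχ.mul s2).add (sχ.mul s3)) m1
      (cl_add2 (hχ.mul s2) (sχ.mul s3) m2 m3)
    have stot := (hχ.mul s1).add ((hχ.mul s2).add (sχ.mul s3))
    rw [e]
    refine ⟨contDiff_const.mul stot, ?_⟩
    have tot2 := cl_clm ((N : ℝ)⁻¹ • ContinuousLinearMap.id ℝ ℝ) stot tot
    have hnorm : ‖(N : ℝ)⁻¹ • ContinuousLinearMap.id ℝ ℝ‖ ≤ 1 := by
      rw [norm_smul, ContinuousLinearMap.norm_id, mul_one, norm_inv, Real.norm_natCast]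
      exact inv_le_one_of_one_le₀ (by exact_mod_cast hN)
    have hle : ‖(N : ℝ)⁻¹ • ContinuousLinearMap.id ℝ ℝ‖ *
        (2 ^ k * (B * (‖trL N‖ * (2 ^ k * (c1 N * (C0 * δ) * (c1 N * δ))))) +
          (2 ^ k * (B * (‖trL N‖ * (c1 N * δ))) + 2 ^ k * (B * (‖trL N‖ * (c1 N * (C0 * δ))))))
        ≤ D * δ := by
      have hnn : 0 ≤ ‖trL N‖ := norm_nonneg _
      have hpos : 0 ≤ 2 ^ k * (B * (‖trL N‖ * (2 ^ k * (c1 N * (C0 * δ) * (c1 N * δ))))) +
          (2 ^ k * (B * (‖trL N‖ * (c1 N * δ))) + 2 ^ k * (B * (‖trL N‖ * (c1 N * (C0 * δ))))) := by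
        positivity
      refine (mul_le_of_le_one_left hpos hnorm).trans ?_
      have a1 : 2 ^ k * (B * (‖trL N‖ * (2 ^ k * (c1 N * (C0 * δ) * (c1 N * δ))))) ≤
          2 ^ k * (B * (τ * (2 ^ k * (c1 N * C0 * c1 N)))) * δ := by
        have b1 : 2 ^ k * (c1 N * (C0 * δ) * (c1 N * δ)) ≤ 2 ^ k * (c1 N * C0 * c1 N) * δ := by
          have : 2 ^ k * (c1 N * (C0 * δ) * (c1 N * δ)) = 2 ^ k * (c1 N * C0 * c1 N) * δ * δ := by
            ring
          rw [this]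
          exact mul_le_of_le_one_right (by positivity) hδ1
        calc 2 ^ k * (B * (‖trL N‖ * (2 ^ k * (c1 N * (C0 * δ) * (c1 N * δ)))))
            ≤ 2 ^ k * (B * (τ * (2 ^ k * (c1 N * C0 * c1 N) * δ))) := by
              refine mul_le_mul_of_nonneg_left (mul_le_mul_of_nonneg_left
                (mul_le_mul hτ1 b1 (by positivity) hτ0.le) hBpos.le) (by positivity)
          _ = _ := by ring
      have a2 : 2 ^ k * (B * (‖trL N‖ * (c1 N * δ))) ≤ 2 ^ k * (B * (τ * c1 N)) * δ := by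
        calc 2 ^ k * (B * (‖trL N‖ * (c1 N * δ))) ≤ 2 ^ k * (B * (τ * (c1 N * δ))) := by
              refine mul_le_mul_of_nonneg_left (mul_le_mul_of_nonneg_left
                (mul_le_mul_of_nonneg_right hτ1 (by positivity)) hBpos.le) (by positivity)
          _ = _ := by ring
      have a3 : 2 ^ k * (B * (‖trL N‖ * (c1 N * (C0 * δ)))) ≤
          2 ^ k * (B * (τ * (c1 N * C0))) * δ := by
        calc 2 ^ k * (B * (‖trL N‖ * (c1 N * (C0 * δ))))
            ≤ 2 ^ k * (B * (τ * (c1 N * (C0 * δ)))) := by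
              refine mul_le_mul_of_nonneg_left (mul_le_mul_of_nonneg_left
                (mul_le_mul_of_nonneg_right hτ1 (by positivity)) hBpos.le) (by positivity)
          _ = _ := by ring
      rw [hD]
      nlinarith
    exact cl_le tot2 hle
  have hsm : ContDiff ℝ ∞ (fun (x : V n) (a : Fin n) =>
      χ x * ((N : ℝ)⁻¹ * (Matrix.trace ((F x)⁻¹ * X a x)).re - x a)) :=
    contDiff_pi.2 fun a => (hcomp a).1
  refine ⟨hsm, ?_⟩
  have hs := cl_fsum (k := k) Finset.univ (f := fun (a : Fin n) (x : V n) =>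
      inc n a (χ x * ((N : ℝ)⁻¹ * (Matrix.trace ((F x)⁻¹ * X a x)).re - x a)))
    (fun a _ => (inc n a).contDiff.comp (hcomp a).1)
    (fun a _ => cl_clm (inc n a) (hcomp a).1 (hcomp a).2)
  have e2 : (fun x : V n => ∑ a, inc n a
      (χ x * ((N : ℝ)⁻¹ * (Matrix.trace ((F x)⁻¹ * X a x)).re - x a))) =
      fun (x : V n) (a : Fin n) =>
        χ x * ((N : ℝ)⁻¹ * (Matrix.trace ((F x)⁻¹ * X a x)).re - x a) := by
    funext x
    exact inc_sum (fun a => χ x * ((N : ℝ)⁻¹ * (Matrix.trace ((F x)⁻¹ * X a x)).re - x a))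
  rw [e2] at hs
  refine cl_le hs ?_
  rw [← Finset.sum_mul]
  have : 0 ≤ D * δ := by positivity
  have : m * D * δ = (1 + ∑ a, ‖inc n a‖) * (D * δ) := by rw [hm]; ring
  rw [this]
  nlinarith

/-- (U_COO) -/
theorem coo : RowCOO := by
  intro n N k hN
  obtain ⟨χ, hχ, hχ1, hχc⟩ := exists_chi91 n
  obtain ⟨C, ε₀, hC, hε₀, h⟩ := coo_one n N k hN χ hχ hχc
  refine ⟨C, ε₀, hC, hε₀, ?_⟩
  intro Ω hΩ F₁ F₂ X₁ X₂ hF₁ hF₂ hX₁ hX₂ hF hX δ hδ0 hδ c1 c2 c3 c4
  obtain ⟨s1, l1⟩ := h F₁ X₁ hF₁ hX₁ δ hδ0 hδ c1 c3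
  obtain ⟨s2, l2⟩ := h F₂ X₂ hF₂ hX₂ δ hδ0 hδ c2 c4
  have hN' : (N : ℝ) ≠ 0 := by positivity
  refine ⟨_, _, s1, s2, ?_, l1, l2, ?_, ?_⟩
  · intro x hx
    funext a
    simp only [hF x hx, hX a x hx]
  · intro x hx a
    simp only [hχ1 x hx]
    field_simp
    ring
  · intro x hx a
    simp only [hχ1 x hx]
    field_simp
    ring

end Vale.Agent.P088.LR.U.H91

end
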